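import Vale.Agent.Lib.P045.Fast.Sound
import Vale.Agent.Lib.P045.Fast.N42.C0
import Vale.Agent.Lib.P045.Fast.N42.C1
import Vale.Agent.Lib.P045.Fast.N42.C2
import Vale.Agent.Lib.P045.Fast.N42.C3
import Vale.Agent.Lib.P045.Fast.N42.C4
import Vale.Agent.Lib.P045.Fast.N42.C5
import Vale.Agent.Lib.P045.Fast.N42.C6
import Vale.Agent.Lib.P045.Fast.N42.C7
import Vale.Agent.Lib.P045.Fast.N42.C8

namespace Vale.Agent.Lib.P045.Fast.N42

/-- All nodes pass the check. -/
theorem all_good : ∀ i, i < 4201 → NodeGood tbl i := by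
  intro i h2
  by_cases h0 : i < 512
  · exact checkT_good _ _ _ _ ok0 i (by omega) (by omega)
  by_cases h1 : i < 1024
  · exact checkT_good _ _ _ _ ok1 i (by omega) (by omega)
  by_cases h2 : i < 1536
  · exact checkT_good _ _ _ _ ok2 i (by omega) (by omega)
  by_cases h3 : i < 2048
  · exact checkT_good _ _ _ _ ok3 i (by omega) (by omega)
  by_cases h4 : i < 2560
  · exact checkT_good _ _ _ _ ok4 i (by omega) (by omega)
  by_cases h5 : i < 3072
  · exact checkT_good _ _ _ _ ok5 i (by omega) (by omega)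
  by_cases h6 : i < 3584
  · exact checkT_good _ _ _ _ ok6 i (by omega) (by omega)
  by_cases h7 : i < 4096
  · exact checkT_good _ _ _ _ ok7 i (by omega) (by omega)
  by_cases h8 : i < 4201
  · exact checkT_good _ _ _ _ ok8 i (by omega) (by omega)
  omega

theorem root_eq : edgesOf (tbl 4200) = [0] := by
  decide +kernel

/-- The covering theorem. -/
theorem cover {α : Type*} (H : Finset (Fin 4 → α))
    (hnu : ∀ L : List (Fin 4 → α), (∀ a ∈ L, a ∈ H) → L.Pairwise DisjT → L.length ≤ 2) :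
    ∃ C : Finset (Fin 4 × α), C.card ≤ 6 ∧ ∀ e ∈ H, ∃ i, (i, e i) ∈ C :=
  cover_of_table H hnu all_good (r := 4200) (by norm_num) root_eq

end Vale.Agent.Lib.P045.Fast.N42
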