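import Vale.Agent.Lib.P045.Fast.N42.D0

namespace Vale.Agent.Lib.P045.Fast.N42

/-- The table of configurations. -/
def Troot : BT :=
  (BT.node (BT.node (BT.node (BT.node (BT.node (BT.leaf T0) (BT.leaf T16)) (BT.node (BT.leaf T8) (BT.leaf 0))) (BT.node (BT.node (BT.leaf T4) (BT.leaf 0)) (BT.node (BT.leaf T12) (BT.leaf 0)))) (BT.node (BT.node (BT.node (BT.leaf T2) (BT.leaf 0)) (BT.node (BT.leaf T10) (BT.leaf 0))) (BT.node (BT.node (BT.leaf T6) (BT.leaf 0)) (BT.node (BT.leaf T14) (BT.leaf 0))))) (BT.node (BT.node (BT.node (BT.node (BT.leaf T1) (BT.leaf 0)) (BT.node (BT.leaf T9) (BT.leaf 0))) (BT.node (BT.node (BT.leaf T5) (BT.leaf 0)) (BT.node (BT.leaf T13) (BT.leaf 0)))) (BT.node (BT.node (BT.node (BT.leaf T3) (BT.leaf 0)) (BT.node (BT.leaf T11) (BT.leaf 0))) (BT.node (BT.node (BT.leaf T7) (BT.leaf 0)) (BT.node (BT.leaf T15) (BT.leaf 0))))))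

/-- The configuration number `j`, packed. -/
noncomputable def tbl (j : Nat) : Nat :=
  Nat.mod (Nat.shiftRight (BT.get Troot (Nat.shiftRight j 8)) (Nat.mul (Nat.mod j 256) 239)) 0x800000000000000000000000000000000000000000000000000000000000

end Vale.Agent.Lib.P045.Fast.N42
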